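import Mathlib.Analysis.PSeries
import Vale.Agent.P134.H891.Liou

/-! `P134.AlmostSymmetric`: weighted averages of cut-off functions; growth `R² (1 + log R)`. -/

set_option linter.all false

open MeasureTheory Filter Topology

namespace Vale.Agent.P134.R2.H908

open Vale.Agent.P134
open Vale.Agent.P134.H891 (pd_cutb_disjoint cutb_grad_le rho_univ
  ph ph_contDiff ph_hasCompactSupport ph_nonneg ph_le_one mm)

variable {n : ℕ}

/-- the weights `1 / (k + 1)`. -/
noncomputable def wk (k : ℕ) : ℝ := 1 / ((k : ℝ) + 1)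

lemma wk_pos (k : ℕ) : 0 < wk k := by unfold wk; positivity

/-- harmonic sums. -/
noncomputable def hsum (N : ℕ) : ℝ := ∑ k ∈ Finset.range N, wk k

lemma hsum_pos {N : ℕ} (hN' : 0 < N) : 0 < hsum N :=
  Finset.sum_pos (fun k _ => wk_pos k) (Finset.nonempty_range_iff.mpr hN'.ne')

lemma hsum_tendsto : Tendsto hsum atTop atTop := Real.tendsto_sum_range_one_div_nat_succ_atTop

/-- weighted averaged cut-off. -/
noncomputable def avw (ρ : ℝ) (N : ℕ) (x : Fin n → ℝ) : ℝ :=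
  (hsum N)⁻¹ * ∑ k ∈ Finset.range N, wk k * cutb Finset.univ (2 ^ k * ρ) x

lemma avw_contDiff {ρ : ℝ} {N : ℕ} : ContDiff ℝ 1 (avw ρ N : (Fin n → ℝ) → ℝ) :=
  contDiff_const.mul (ContDiff.sum fun _ _ => contDiff_const.mul (cutb_contDiff _ _))

lemma avw_bound {ρ : ℝ} (hρ : 0 < ρ) (N : ℕ) :
    ∀ x : Fin n → ℝ, x ∉ box n (2 * (2 ^ N * ρ)) → avw ρ N x = 0 := by
  intro x hx
  unfold avw
  rw [Finset.sum_eq_zero, mul_zero]
  intro k hk
  rw [mem_box] at hx
  push Not at hx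
  obtain ⟨i, hi⟩ := hx
  rw [cutb_eq_zero_of_abs (by positivity) (Finset.mem_univ i), mul_zero]
  refine lt_of_le_of_lt ?_ hi
  have : (2:ℝ) ^ k ≤ 2 ^ N := pow_le_pow_right₀ (by norm_num) (Finset.mem_range.mp hk).le
  nlinarith

lemma avw_hasCompactSupport {ρ : ℝ} (hρ : 0 < ρ) {N : ℕ} :
    HasCompactSupport (avw ρ N : (Fin n → ℝ) → ℝ) :=
  HasCompactSupport.intro (isCompact_box (2 * (2 ^ N * ρ))) fun x hx => avw_bound hρ N x hx

lemma avw_one {ρ : ℝ} (hρ : 0 < ρ) {N : ℕ} (hN0 : 0 < N) {x : Fin n → ℝ} (hx : esq x ≤ ρ ^ 2) :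
    avw ρ N x = 1 := by
  unfold avw
  have : ∀ k ∈ Finset.range N, wk k * cutb Finset.univ (2 ^ k * ρ) x = wk k := by
    intro k _
    have h1 : cutb Finset.univ (2 ^ k * ρ) x = 1 := by
      unfold cutb
      apply th_one
      rw [rho_univ, div_le_one (by positivity)]
      have h2k : (1:ℝ) ≤ 2 ^ k := one_le_pow₀ (by norm_num)
      have h3 : ρ ≤ 2 ^ k * ρ := by nlinarith
      have h4 := pow_le_pow_left₀ hρ.le h3 2
      linarith
    rw [h1, mul_one]
  rw [Finset.sum_congr rfl this]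
  exact inv_mul_cancel₀ (hsum_pos hN0).ne'

lemma pd_avw {ρ : ℝ} {N : ℕ} (x : Fin n → ℝ) (i : Fin n) :
    pd i (avw ρ N) x
      = (hsum N)⁻¹ * ∑ k ∈ Finset.range N, wk k * pd i (cutb Finset.univ (2 ^ k * ρ)) x := by
  have d0 : ∀ k : ℕ, DifferentiableAt ℝ (cutb (Finset.univ : Finset (Fin n)) (2 ^ k * ρ)) x :=
    fun k => (cutb_contDiff _ _).differentiable (by norm_num) x
  have d1 : ∀ k ∈ Finset.range N, DifferentiableAt ℝ
      (fun y => wk k * cutb (Finset.univ : Finset (Fin n)) (2 ^ k * ρ) y) x :=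
    fun k _ => (d0 k).const_mul _
  have d2 : DifferentiableAt ℝ (fun y => ∑ k ∈ Finset.range N,
      wk k * cutb (Finset.univ : Finset (Fin n)) (2 ^ k * ρ) y) x :=
    DifferentiableAt.fun_sum d1
  unfold avw
  rw [pd_mul (differentiableAt_const _) d2, pd_const,
    pd_sum (Finset.range N) (F := fun k y => wk k * cutb Finset.univ (2 ^ k * ρ) y) d1]
  have h : ∀ k ∈ Finset.range N, pd i (fun y => wk k * cutb Finset.univ (2 ^ k * ρ) y) x
      = wk k * pd i (cutb Finset.univ (2 ^ k * ρ)) x := by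
    intro k _
    rw [pd_mul (differentiableAt_const _) (d0 k), pd_const]
    ring
  rw [Finset.sum_congr rfl h]
  ring

lemma avw_grad {ρ : ℝ} (hρ : 0 < ρ) (N : ℕ) (x : Fin n → ℝ) :
    ∑ j, pd j (avw ρ N) x ^ 2
      = (hsum N)⁻¹ ^ 2 * ∑ k ∈ Finset.range N,
        wk k ^ 2 * ∑ j, pd j (cutb Finset.univ (2 ^ k * ρ)) x ^ 2 := by
  simp_rw [Finset.mul_sum (s := (Finset.univ : Finset (Fin n)))]
  rw [Finset.sum_comm (s := Finset.range N), Finset.mul_sum]
  apply Finset.sum_congr rfl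
  intro j _
  rw [pd_avw, mul_pow, sq_sum_of_pairwise]
  · simp_rw [mul_pow]
  intro k l hkl
  have e : wk k * pd j (cutb Finset.univ (2 ^ k * ρ)) x
      * (wk l * pd j (cutb Finset.univ (2 ^ l * ρ)) x)
      = (wk k * wk l) * (pd j (cutb Finset.univ (2 ^ k * ρ)) x
        * pd j (cutb Finset.univ (2 ^ l * ρ)) x) := by ring
  rw [e]
  rcases lt_or_gt_of_ne hkl with h | h
  · rw [pd_cutb_disjoint (by positivity) _ x j, mul_zero]
    have : (2:ℝ) ^ (k + 1) ≤ 2 ^ l := pow_le_pow_right₀ (by norm_num) h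
    rw [pow_succ] at this
    nlinarith
  · rw [mul_comm (pd j (cutb Finset.univ (2 ^ k * ρ)) x), pd_cutb_disjoint (by positivity) _ x j,
      mul_zero]
    have : (2:ℝ) ^ (l + 1) ≤ 2 ^ k := pow_le_pow_right₀ (by norm_num) h
    rw [pow_succ] at this
    nlinarith

/-- energy of the weighted cut-offs under growth `R² (1 + log R)`. -/
lemma avw_growth {g : (Fin n → ℝ) → ℝ} (hgc : Continuous g) (hg0 : ∀ x, 0 ≤ g x) {B : ℝ}
    (hB : 0 ≤ B) (hg : ∀ᶠ R in atTop, ∫ x, g x * ph R x ≤ B * R ^ 2 * (1 + Real.log R)) :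
    ∃ K : ℝ, 0 ≤ K ∧ ∃ R0 : ℝ, ∀ ρ : ℝ, 1 ≤ ρ → R0 ≤ ρ → ∀ N : ℕ, 0 < N →
      ∫ x, g x * ∑ j, pd j (avw ρ N) x ^ 2 ≤ K * (3 + Real.log ρ) / hsum N := by
  obtain ⟨C, hC1, hC⟩ := exists_th_bound
  obtain ⟨K, hK⟩ : ∃ K : ℝ, K = n * (3 * C) ^ 2 * 4 * (B * 4) := ⟨_, rfl⟩
  have hK0 : 0 ≤ K := by rw [hK]; positivity
  obtain ⟨R0, hR0⟩ := eventually_atTop.mp hg
  refine ⟨K, hK0, R0, ?_⟩
  intro ρ hρ1 hρ N hN0
  have hρ0 : 0 < ρ := by linarith
  have hHN := hsum_pos hN0
  have hlρ : 0 ≤ Real.log ρ := Real.log_nonneg hρ1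
  have hcb : ∀ k : ℕ, HasCompactSupport (cutb (Finset.univ : Finset (Fin n)) (2 ^ k * ρ)) := by
    intro k
    apply HasCompactSupport.intro (isCompact_box (2 * (2 ^ k * ρ)))
    intro x hx
    rw [mem_box] at hx
    push Not at hx
    obtain ⟨i, hi⟩ := hx
    exact cutb_eq_zero_of_abs (by positivity) (Finset.mem_univ i) hi
  have hi : ∀ k : ℕ,
      Integrable (fun x => g x * ∑ j, pd j (cutb (Finset.univ : Finset (Fin n)) (2 ^ k * ρ)) x ^ 2) := by
    intro k
    have : (fun x => g x * ∑ j, pd j (cutb (Finset.univ : Finset (Fin n)) (2 ^ k * ρ)) x ^ 2)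
        = fun x => ∑ j, g x * pd j (cutb (Finset.univ : Finset (Fin n)) (2 ^ k * ρ)) x ^ 2 := by
      ext x; rw [Finset.mul_sum]
    rw [this]
    apply integrable_finsetSum; intro j _
    exact (hgc.mul ((continuous_pd (cutb_contDiff _ _)).pow 2)).integrable_of_hasCompactSupport
      (hcs_sq (hasCompactSupport_pd (hcb k))).mul_left
  have e1 : ∫ x, g x * ∑ j, pd j (avw ρ N) x ^ 2
      = (hsum N)⁻¹ ^ 2 * ∑ k ∈ Finset.range N, wk k ^ 2 *
        ∫ x, g x * ∑ j, pd j (cutb (Finset.univ : Finset (Fin n)) (2 ^ k * ρ)) x ^ 2 := by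
    simp_rw [← integral_const_mul]
    rw [← integral_finsetSum _ (fun k _ => (hi k).const_mul _), ← integral_const_mul]
    congr 1; ext x
    rw [avw_grad hρ0]
    simp only [Finset.mul_sum]
    refine Finset.sum_congr rfl fun k _ => Finset.sum_congr rfl fun j _ => by ring
  rw [e1]
  have hk : ∀ k : ℕ,
      ∫ x, g x * ∑ j, pd j (cutb (Finset.univ : Finset (Fin n)) (2 ^ k * ρ)) x ^ 2
        ≤ K * (3 + Real.log ρ) * ((k:ℝ) + 1) := by
    intro k
    obtain ⟨r, hr⟩ : ∃ r : ℝ, r = 2 ^ k * ρ := ⟨_, rfl⟩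
    rw [← hr]
    have h2k : (1:ℝ) ≤ 2 ^ k := one_le_pow₀ (by norm_num)
    have hr0 : 0 < r := by rw [hr]; positivity
    have hr1 : ρ ≤ r := by rw [hr]; nlinarith
    have hlog : Real.log (2 * r) ≤ (k:ℝ) + 1 + Real.log ρ := by
      have h3 : Real.log (2 * r) = Real.log 2 + (k * Real.log 2 + Real.log ρ) := by
        rw [hr, Real.log_mul (by norm_num) (by positivity),
          Real.log_mul (by positivity) hρ0.ne', Real.log_pow]
      have h4 : Real.log 2 ≤ 1 := by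
        have := Real.log_le_sub_one_of_pos (show (0:ℝ) < 2 by norm_num)
        linarith
      have h5 : (k:ℝ) * Real.log 2 ≤ k := by
        have : (0:ℝ) ≤ k := Nat.cast_nonneg k
        nlinarith
      rw [h3]; linarith
    have i2 : Integrable (fun x => g x * ph (2 * r) x) :=
      (hgc.mul (ph_contDiff _).continuous).integrable_of_hasCompactSupport
        (ph_hasCompactSupport (by positivity)).mul_left
    calc ∫ x, g x * ∑ j, pd j (cutb (Finset.univ : Finset (Fin n)) r) x ^ 2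
        ≤ ∫ x, (n * (3 * C / r) ^ 2 * 4) * (g x * ph (2 * r) x) := by
          apply integral_mono (by rw [hr]; exact hi k) (i2.const_mul _)
          intro x
          simp only
          have h2 := cutb_grad_le hC hr0 x
          have h3 := mul_le_mul_of_nonneg_left h2 (hg0 x)
          linarith
      _ = (n * (3 * C / r) ^ 2 * 4) * ∫ x, g x * ph (2 * r) x := integral_const_mul _ _
      _ ≤ (n * (3 * C / r) ^ 2 * 4) * (B * (2 * r) ^ 2 * (1 + Real.log (2 * r))) := by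
          apply mul_le_mul_of_nonneg_left _ (by positivity)
          exact hR0 (2 * r) (by linarith)
      _ = K * (1 + Real.log (2 * r)) := by
          rw [hK]; field_simp
          ring
      _ ≤ K * ((3 + Real.log ρ) * ((k:ℝ) + 1)) := by
          apply mul_le_mul_of_nonneg_left _ hK0
          have : (0:ℝ) ≤ k := Nat.cast_nonneg k
          nlinarith [mul_nonneg this hlρ]
      _ = _ := by ring
  have hterm : ∀ k ∈ Finset.range N, wk k ^ 2 *
      ∫ x, g x * ∑ j, pd j (cutb (Finset.univ : Finset (Fin n)) (2 ^ k * ρ)) x ^ 2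
        ≤ wk k * (K * (3 + Real.log ρ)) := by
    intro k _
    refine (mul_le_mul_of_nonneg_left (hk k) (sq_nonneg _)).trans (le_of_eq ?_)
    unfold wk
    field_simp
  calc (hsum N)⁻¹ ^ 2 * ∑ k ∈ Finset.range N, wk k ^ 2 *
        ∫ x, g x * ∑ j, pd j (cutb (Finset.univ : Finset (Fin n)) (2 ^ k * ρ)) x ^ 2
      ≤ (hsum N)⁻¹ ^ 2 * ∑ k ∈ Finset.range N, wk k * (K * (3 + Real.log ρ)) := by
        apply mul_le_mul_of_nonneg_left (Finset.sum_le_sum hterm) (by positivity)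
    _ = K * (3 + Real.log ρ) / hsum N := by
        rw [← Finset.sum_mul]
        change (hsum N)⁻¹ ^ 2 * (hsum N * (K * (3 + Real.log ρ))) = _
        field_simp

end Vale.Agent.P134.R2.H908
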