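import Vale.Agent.P134.R2.H908.Main
import Vale.Agent.P134.R2.H584.Wrap

/-! `P134.AlmostSymmetric`: invariance under all rotations orthogonal to `W` about `c`. -/

set_option linter.all false

open MeasureTheory Filter Topology
open scoped InnerProductSpace Laplacian

namespace Vale.Agent.P134.R2.H908

open Vale.Agent.P134 Vale.Agent.P134.R2.H584
open Vale.Agent.P134.H765 (StableE)

variable {n : ℕ} {u : EuclideanSpace ℝ (Fin n) → ℝ}

/-- the generator of the rotations in the plane of `v` and `v'`. -/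
noncomputable def rtg (v v' : EuclideanSpace ℝ (Fin n)) :
    EuclideanSpace ℝ (Fin n) →L[ℝ] EuclideanSpace ℝ (Fin n) :=
  (innerSL ℝ v).smulRight v' - (innerSL ℝ v').smulRight v

lemma rtg_apply (v v' x : EuclideanSpace ℝ (Fin n)) :
    rtg v v' x = ⟪v, x⟫_ℝ • v' - ⟪v', x⟫_ℝ • v := by
  simp [rtg]

lemma rtg_skew (v v' x : EuclideanSpace ℝ (Fin n)) : ⟪x, rtg v v' x⟫_ℝ = 0 := by
  rw [rtg_apply, inner_sub_right, inner_smul_right, inner_smul_right, real_inner_comm x v',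
    real_inner_comm x v]
  ring

/-- the circle. -/
lemma circ (du : Differentiable ℝ u) {W : Submodule ℝ (EuclideanSpace ℝ (Fin n))}
    {c : EuclideanSpace ℝ (Fin n)}
    (h : ∀ v ∈ Wᗮ, ∀ v' ∈ Wᗮ, ∀ x, fderiv ℝ u x (rtg v v' (x - c)) = 0)
    {w0 p m : EuclideanSpace ℝ (Fin n)} (hw0 : w0 ∈ W) (hp : p ∈ Wᗮ) (hm : m ∈ Wᗮ)
    (hpm : ⟪p, m⟫_ℝ = 0) (hn : ‖m‖ = ‖p‖) (t : ℝ) :
    u (c + w0 + (Real.cos t • p + Real.sin t • m)) = u (c + w0 + p) := by
  have hpw : ⟪p, w0⟫_ℝ = 0 := by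
    rw [real_inner_comm]; exact (Submodule.mem_orthogonal W p).mp hp w0 hw0
  have hmw : ⟪m, w0⟫_ℝ = 0 := by
    rw [real_inner_comm]; exact (Submodule.mem_orthogonal W m).mp hm w0 hw0
  have hmp : ⟪m, p⟫_ℝ = 0 := by rw [real_inner_comm]; exact hpm
  obtain ⟨γ, hγ⟩ : ∃ γ : ℝ → EuclideanSpace ℝ (Fin n),
      γ = fun t => c + w0 + (Real.cos t • p + Real.sin t • m) := ⟨_, rfl⟩
  have hd : ∀ t, HasDerivAt γ ((-Real.sin t) • p + Real.cos t • m) t := by
    intro t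
    rw [hγ]
    exact (((Real.hasDerivAt_cos t).smul_const p).add
      ((Real.hasDerivAt_sin t).smul_const m)).const_add (c + w0)
  have hz : ∀ t, fderiv ℝ u (γ t) ((-Real.sin t) • p + Real.cos t • m) = 0 := by
    intro t
    by_cases h0 : p = 0
    · have hm0 : m = 0 := by rw [h0, norm_zero] at hn; exact norm_eq_zero.mp hn
      rw [h0, hm0]; simp
    · have h1 := h p hp m hm (γ t)
      have e : rtg p m (γ t - c) = (‖p‖ ^ 2) • ((-Real.sin t) • p + Real.cos t • m) := by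
        have e1 : γ t - c = w0 + (Real.cos t • p + Real.sin t • m) := by
          rw [hγ]; simp only; abel
        rw [rtg_apply, e1]
        simp only [inner_add_right, inner_smul_right, hpw, hmw, hpm, hmp,
          real_inner_self_eq_norm_sq, hn]
        module
      rw [e, map_smul, smul_eq_mul] at h1
      have h2 : ‖p‖ ^ 2 ≠ 0 := by positivity
      exact (mul_eq_zero.mp h1).resolve_left h2
  have hf : ∀ t, HasDerivAt (fun t => u (γ t)) 0 t := by
    intro t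
    have h1 := (du (γ t)).hasFDerivAt.comp_hasDerivAt t (hd t)
    rw [hz t] at h1
    exact h1
  have h1 := is_const_of_deriv_eq_zero (f := fun t => u (γ t))
    (fun t => (hf t).differentiableAt) (fun t => (hf t).deriv) t 0
  rw [hγ] at h1
  simpa using h1

/-- **Invariance under the infinitesimal rotations gives dependence on `P_W x` and `|x - c|`.** -/
theorem dep_of_inv (du : Differentiable ℝ u) {W : Submodule ℝ (EuclideanSpace ℝ (Fin n))}
    {c : EuclideanSpace ℝ (Fin n)} (hE : 2 ≤ Module.finrank ℝ Wᗮ)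
    (h : ∀ v ∈ Wᗮ, ∀ v' ∈ Wᗮ, ∀ x, fderiv ℝ u x (rtg v v' (x - c)) = 0) :
    DependsOn W c u := by
  intro x y hxy hn
  obtain ⟨w0, hw0, p, hp, hx⟩ := W.exists_add_mem_mem_orthogonal (x - c)
  obtain ⟨q, hq⟩ : ∃ q, q = y - c - w0 := ⟨_, rfl⟩
  have hpw : ∀ w ∈ W, ⟪w, p⟫_ℝ = 0 := fun w hw => (Submodule.mem_orthogonal W p).mp hp w hw
  have hqw : ∀ w ∈ W, ⟪w, q⟫_ℝ = 0 := by
    intro w hw
    have h1 := hpw w hw
    have e : p = x - c - w0 := by rw [hx]; abel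
    rw [e, inner_sub_right, inner_sub_right] at h1
    rw [hq, inner_sub_right, inner_sub_right, ← hxy w hw]
    exact h1
  have hqE : q ∈ Wᗮ := (Submodule.mem_orthogonal W q).mpr hqw
  have hy : y - c = w0 + q := by rw [hq]; abel
  have hpq : ‖q‖ = ‖p‖ := by
    have h1 : ‖w0 + p‖ ^ 2 = ‖w0‖ ^ 2 + ‖p‖ ^ 2 := by
      rw [norm_add_sq_real, hpw w0 hw0]; ring
    have h2 : ‖w0 + q‖ ^ 2 = ‖w0‖ ^ 2 + ‖q‖ ^ 2 := by
      rw [norm_add_sq_real, hqw w0 hw0]; ring
    rw [hx, hy] at hn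
    have h3 : ‖q‖ ^ 2 = ‖p‖ ^ 2 := by rw [hn] at h1; linarith
    exact (pow_left_inj₀ (norm_nonneg _) (norm_nonneg _) two_ne_zero).mp h3
  have ex : x = c + w0 + p := by
    have : x = c + (x - c) := by abel
    rw [this, hx]; abel
  have ey : y = c + w0 + q := by
    have : y = c + (y - c) := by abel
    rw [this, hy]; abel
  rw [ex, ey]
  clear ex ey hx hy hn hxy hq
  by_cases hp0 : p = 0
  · have hq0 : q = 0 := by rw [hp0, norm_zero] at hpq; exact norm_eq_zero.mp hpq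
    rw [hp0, hq0]
  have hr : 0 < ‖p‖ := norm_pos_iff.mpr hp0
  obtain ⟨α, hα⟩ : ∃ α : ℝ, α = ⟪p, q⟫_ℝ / ‖p‖ ^ 2 := ⟨_, rfl⟩
  have hα1 : ⟪p, q⟫_ℝ = α * ‖p‖ ^ 2 := by rw [hα]; field_simp
  obtain ⟨k, hk⟩ : ∃ k, k = q - α • p := ⟨_, rfl⟩
  have hkE : k ∈ Wᗮ := by rw [hk]; exact Wᗮ.sub_mem hqE (Wᗮ.smul_mem α hp)
  have hpk : ⟪p, k⟫_ℝ = 0 := by
    rw [hk, inner_sub_right, inner_smul_right, hα1, real_inner_self_eq_norm_sq]; ring
  have hqk : q = α • p + k := by rw [hk]; abel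
  have hnk : ‖k‖ ^ 2 = (1 - α ^ 2) * ‖p‖ ^ 2 := by
    have h1 : ‖q‖ ^ 2 = ‖α • p‖ ^ 2 + ‖k‖ ^ 2 := by
      rw [hqk, norm_add_sq_real, inner_smul_left, hpk]; simp
    rw [hpq, norm_smul, mul_pow, Real.norm_eq_abs, sq_abs] at h1
    linarith
  by_cases hk0 : k = 0
  · have h1 : α ^ 2 = 1 := by
      rw [hk0, norm_zero] at hnk
      have h2 : (1 - α ^ 2) * ‖p‖ ^ 2 = 0 := by rw [← hnk]; ring
      have h3 := (mul_eq_zero.mp h2).resolve_right (by positivity)
      linarith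
    have h1' : (α - 1) * (α + 1) = 0 := by linear_combination h1
    have h2' : α = 1 ∨ α = -1 := by
      rcases mul_eq_zero.mp h1' with h | h
      · exact Or.inl (by linarith)
      · exact Or.inr (by linarith)
    rcases h2' with h2 | h2
    · rw [hqk, hk0, h2]; simp
    · -- antipodal
      have hker : LinearMap.ker ((innerSL ℝ p).toLinearMap.domRestrict Wᗮ) ≠ ⊥ := by
        apply LinearMap.ker_ne_bot_of_finrank_lt
        rw [Module.finrank_self]
        omega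
      obtain ⟨m0, hm0, hm0'⟩ := Submodule.exists_mem_ne_zero_of_ne_bot hker
      have h3 : ⟪p, (m0 : EuclideanSpace ℝ (Fin n))⟫_ℝ = 0 := by
        simpa using LinearMap.mem_ker.mp hm0
      have h4 : 0 < ‖(m0 : EuclideanSpace ℝ (Fin n))‖ := by
        rw [norm_pos_iff]
        intro h5
        exact hm0' (Subtype.ext h5)
      have h6 := circ du h hw0 hp (Wᗮ.smul_mem (‖p‖ / ‖(m0 : EuclideanSpace ℝ (Fin n))‖) m0.2)
        (by rw [inner_smul_right, h3, mul_zero])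
        (by rw [norm_smul, Real.norm_of_nonneg (by positivity)]; field_simp) Real.pi
      rw [Real.cos_pi, Real.sin_pi] at h6
      rw [hqk, hk0, h2, add_zero, ← h6]
      simp
  · have hk1 : 0 < ‖k‖ := norm_pos_iff.mpr hk0
    have h6 := circ du h hw0 hp (Wᗮ.smul_mem (‖p‖ / ‖k‖) hkE)
      (by rw [inner_smul_right, hpk, mul_zero])
      (by rw [norm_smul, Real.norm_of_nonneg (by positivity)]; field_simp) (Real.arccos α)
    have hα2 : α ^ 2 ≤ 1 := by
      by_contra hc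
      push Not at hc
      have : (1 - α ^ 2) * ‖p‖ ^ 2 < 0 := mul_neg_of_neg_of_pos (by linarith) (by positivity)
      nlinarith [sq_nonneg ‖k‖]
    have hα3 := abs_le_one_iff_mul_self_le_one.mpr (by nlinarith : α * α ≤ 1)
    obtain ⟨ha1, ha2⟩ := abs_le.mp hα3
    rw [Real.cos_arccos ha1 ha2, Real.sin_arccos] at h6
    have h7 : √(1 - α ^ 2) = ‖k‖ / ‖p‖ := by
      rw [Real.sqrt_eq_iff_mul_self_eq (by linarith) (by positivity)]
      field_simp
      linarith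
    rw [h7, smul_smul] at h6
    have h8 : ‖k‖ / ‖p‖ * (‖p‖ / ‖k‖) = 1 := by field_simp
    rw [h8, one_smul, ← hqk] at h6
    exact h6.symm

/-- the field `rtg v v' (x - c)`. -/
lemma rtg_fld (v v' c x : EuclideanSpace ℝ (Fin n)) :
    rtg v v' x + -(rtg v v' c) = rtg v v' (x - c) := by
  rw [map_sub]; abel

lemma rtg_orth {W : Submodule ℝ (EuclideanSpace ℝ (Fin n))} {v v' : EuclideanSpace ℝ (Fin n)}
    (hv : v ∈ Wᗮ) (hv' : v' ∈ Wᗮ) (x : EuclideanSpace ℝ (Fin n)) (w : EuclideanSpace ℝ (Fin n))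
    (hw : w ∈ W) : ⟪w, rtg v v' x⟫_ℝ = 0 := by
  rw [rtg_apply, inner_sub_right, inner_smul_right, inner_smul_right,
    (Submodule.mem_orthogonal W v).mp hv w hw, (Submodule.mem_orthogonal W v').mp hv' w hw]
  ring

/-- **Almost axially symmetric monotone solutions, `n ≤ 7`.** -/
theorem mono_axis (hn : n ≤ 7) (hu : ContDiff ℝ 2 u)
    (heq : ∀ x, Δ u x = u x ^ 3 - u x) (hb : ∃ M : ℝ, ∀ x, |u x| ≤ M)
    {a : EuclideanSpace ℝ (Fin n)} (ha : ∀ x, 0 < fderiv ℝ u x a)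
    {W : Submodule ℝ (EuclideanSpace ℝ (Fin n))} (hW : Module.finrank ℝ W = 2)
    {c : EuclideanSpace ℝ (Fin n)}
    (hX : ∀ (B : EuclideanSpace ℝ (Fin n) →L[ℝ] EuclideanSpace ℝ (Fin n))
      (c' : EuclideanSpace ℝ (Fin n)), (∀ x, ⟪x, B x⟫_ℝ = 0) → B c + c' = 0 →
      (∀ x, ∀ w ∈ W, ⟪w, B x + c'⟫_ℝ = 0) → AMono u B c' ∨ AMono u (-B) (-c')) :
    ∃ (e : EuclideanSpace ℝ (Fin n)) (c : ℝ), ‖e‖ = 1 ∧ 0 < ⟪e, a⟫_ℝ ∧
      ∀ x, u x = Real.tanh ((⟪e, x⟫_ℝ - c) / √2) := by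
  rcases Nat.lt_or_ge n 5 with h | h
  · exact H134.mono_of_S3 H134.stS3 (by omega) hu heq hb ha
  have du : Differentiable ℝ u := hu.differentiable (by norm_num)
  have hE : 2 ≤ Module.finrank ℝ Wᗮ := by
    have h1 := Submodule.finrank_add_finrank_orthogonal W
    rw [hW, finrank_euclideanSpace_fin] at h1
    omega
  refine mono_sym hn hu heq hb ha hW (c := c) (dep_of_inv du hE fun v hv v' hv' x => ?_)
  obtain ⟨B, hBd⟩ : ∃ B, B = rtg v v' := ⟨_, rfl⟩
  have hB : ∀ x, ⟪x, B x⟫_ℝ = 0 := fun x => by rw [hBd]; exact rtg_skew v v' x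
  have hzero : B c + -(B c) = 0 := add_neg_cancel _
  have key : ∀ x, fderiv ℝ u x (B x + -(B c)) = 0 := by
    rcases hX B (-(B c)) hB hzero (fun x w hw => by
      rw [hBd, rtg_fld]; exact rtg_orth hv hv' _ w hw) with hg | hg
    · obtain ⟨s, hs⟩ := rigid_mono' hu heq hb ha hB hg (Or.inl ⟨c, by rw [hzero, map_zero]⟩)
      have h1 := hs c
      rw [hzero, map_zero] at h1
      have h2 : s = 0 := (mul_eq_zero.mp h1.symm).resolve_right (ha c).ne'
      intro x; rw [hs x, h2, zero_mul]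
    · have hB' : ∀ x, ⟪x, (-B) x⟫_ℝ = 0 := fun x => by
        rw [ContinuousLinearMap.neg_apply, inner_neg_right, hB, neg_zero]
      obtain ⟨s, hs⟩ := rigid_mono' hu heq hb ha hB' hg
        (Or.inl ⟨c, by rw [neg_fld, hzero, map_zero, neg_zero]⟩)
      have h1 := hs c
      rw [neg_fld, hzero, map_zero, neg_zero] at h1
      have h2 : s = 0 := (mul_eq_zero.mp h1.symm).resolve_right (ha c).ne'
      intro x
      have h3 := hs x
      rw [neg_fld, h2, zero_mul] at h3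
      linarith
  have h1 := key x
  rwa [hBd, rtg_fld] at h1

/-- **Almost axially symmetric stable solutions, `n ≤ 6`.** -/
theorem stable_axis {m : ℕ} {u : EuclideanSpace ℝ (Fin (m + 3)) → ℝ} (hm : m ≤ 3)
    (hu : ContDiff ℝ 2 u)
    (heq : ∀ x, Δ u x = u x ^ 3 - u x) (hb : ∃ M : ℝ, ∀ x, |u x| ≤ M) (hs : StableE u)
    {W : Submodule ℝ (EuclideanSpace ℝ (Fin (m + 3)))} (hW : Module.finrank ℝ W = 1)
    {c : EuclideanSpace ℝ (Fin (m + 3))}
    (hX : ∀ (B : EuclideanSpace ℝ (Fin (m + 3)) →L[ℝ] EuclideanSpace ℝ (Fin (m + 3)))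
      (c' : EuclideanSpace ℝ (Fin (m + 3))), (∀ x, ⟪x, B x⟫_ℝ = 0) → B c + c' = 0 →
      (∀ x, ∀ w ∈ W, ⟪w, B x + c'⟫_ℝ = 0) → AMono u B c' ∨ AMono u (-B) (-c')) :
    (∀ x, u x = 1) ∨ (∀ x, u x = -1) ∨ ∃ (e : EuclideanSpace ℝ (Fin (m + 3))) (c : ℝ), ‖e‖ = 1 ∧
      ∀ x, u x = Real.tanh ((⟪e, x⟫_ℝ - c) / √2) := by
  have du : Differentiable ℝ u := hu.differentiable (by norm_num)
  have hE : 2 ≤ Module.finrank ℝ Wᗮ := by
    have h1 := Submodule.finrank_add_finrank_orthogonal W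
    rw [hW, finrank_euclideanSpace_fin] at h1
    omega
  refine stable_sym hm hu heq hb hs hW (c := c) (dep_of_inv du hE fun v hv v' hv' x => ?_)
  obtain ⟨B, hBd⟩ : ∃ B, B = rtg v v' := ⟨_, rfl⟩
  have hB : ∀ x, ⟪x, B x⟫_ℝ = 0 := fun x => by rw [hBd]; exact rtg_skew v v' x
  have hzero : B c + -(B c) = 0 := add_neg_cancel _
  have key : ∀ x, fderiv ℝ u x (B x + -(B c)) = 0 := by
    rcases hX B (-(B c)) hB hzero (fun x w hw => by
      rw [hBd, rtg_fld]; exact rtg_orth hv hv' _ w hw) with hg | hg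
    · exact rigid_stable hu heq hb hs hB hg (x0 := c) (by rw [hzero, map_zero])
    · have hB' : ∀ x, ⟪x, (-B) x⟫_ℝ = 0 := fun x => by
        rw [ContinuousLinearMap.neg_apply, inner_neg_right, hB, neg_zero]
      intro x
      have h3 := rigid_stable hu heq hb hs hB' hg (x0 := c)
        (by rw [neg_fld, hzero, map_zero, neg_zero]) x
      rw [neg_fld] at h3
      linarith
  have h1 := key x
  rwa [hBd, rtg_fld] at h1

end Vale.Agent.P134.R2.H908
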