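import Vale.Agent.P134.R2.H908.Main
import Vale.Agent.P134.R2.H908.Dep
import Vale.Agent.P134.B331.Top

/-! `P134.AlmostSymmetric`: dimension five and the stable form in dimension four. -/

set_option linter.all false

open MeasureTheory Filter Topology
open scoped InnerProductSpace Laplacian

namespace Vale.Agent.P134.R2.H908

open Vale.Agent.P134 Vale.Agent.P134.H765 Vale.Agent.P134.B331 Vale.Agent.P134.B331.M

theorem five_almost (hS : LI.StS3) (hM : Mono 4) {u : EuclideanSpace ℝ (Fin 5) → ℝ}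
    (hu : ContDiff ℝ 2 u) (heq : ∀ x, Δ u x = u x ^ 3 - u x) (hb : ∃ M : ℝ, ∀ x, |u x| ≤ M)
    {a : EuclideanSpace ℝ (Fin 5)} (ha : ∀ x, 0 < fderiv ℝ u x a)
    {B : EuclideanSpace ℝ (Fin 5) →L[ℝ] EuclideanSpace ℝ (Fin 5)} {c : EuclideanSpace ℝ (Fin 5)}
    (hB : ∀ x, ⟪x, B x⟫_ℝ = 0) (hne : B ≠ 0 ∨ ∀ s : ℝ, c ≠ s • a) (hg : AMono u B c)
    (h : (∃ x, fderiv ℝ u x (B x + c) ≤ 0) ∨ AMono u (-B) (-c)) :
    ∃ (e : EuclideanSpace ℝ (Fin 5)) (c : ℝ), ‖e‖ = 1 ∧ 0 < ⟪e, a⟫_ℝ ∧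
      ∀ x, u x = Real.tanh ((⟪e, x⟫_ℝ - c) / √2) := by
  obtain ⟨s, hs⟩ := rigid_mono' hu heq hb ha hB hg h
  have hgen : ∀ x, fderiv ℝ u x (B x + (c - s • a)) = 0 := by
    intro x
    rw [← add_sub_assoc, map_sub, map_smul, smul_eq_mul, hs]
    ring
  have hBc : B ≠ 0 ∨ c - s • a ≠ 0 := by
    rcases hne with h1 | h1
    · exact Or.inl h1
    · exact Or.inr (sub_ne_zero.mpr (h1 s))
  have hRed : Red := fun u hu heq hb a ha w hw hwu => stRd 4 hM u hu heq hb a ha w hw hwu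
  exact five_killing stH (topP5 hS) stG stN5 topV hRed hu heq hb ha hBc hB hgen

theorem four_almost (hS : LI.StS3) {u : EuclideanSpace ℝ (Fin 4) → ℝ}
    (hu : ContDiff ℝ 2 u) (heq : ∀ x, Δ u x = u x ^ 3 - u x) (hb : ∃ M : ℝ, ∀ x, |u x| ≤ M)
    (hs : StableE u)
    {B : EuclideanSpace ℝ (Fin 4) →L[ℝ] EuclideanSpace ℝ (Fin 4)} {c : EuclideanSpace ℝ (Fin 4)}
    (hB : ∀ x, ⟪x, B x⟫_ℝ = 0) (hne : B ≠ 0 ∨ c ≠ 0) (hg : AMono u B c)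
    (h : ∃ x, fderiv ℝ u x (B x + c) = 0) :
    (∀ x, u x = 1) ∨ (∀ x, u x = -1) ∨ ∃ (e : EuclideanSpace ℝ (Fin 4)) (c : ℝ), ‖e‖ = 1 ∧
      ∀ x, u x = Real.tanh ((⟪e, x⟫_ℝ - c) / √2) := by
  obtain ⟨x0, hx0⟩ := h
  exact four_stable_killing (topP4 hS) hu heq hb hs hne hB (rigid_stable hu heq hb hs hB hg hx0)

variable {n : ℕ} {u : EuclideanSpace ℝ (Fin n) → ℝ}

lemma amono_neg {B : EuclideanSpace ℝ (Fin n) →L[ℝ] EuclideanSpace ℝ (Fin n)}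
    {c : EuclideanSpace ℝ (Fin n)} (h : AlmostMonotone u (-(fun x => B x + c))) :
    AMono u (-B) (-c) := by
  obtain ⟨K, hK⟩ := h
  refine ⟨K, fun R hR => ?_⟩
  have e : ∀ x, (-B) x + -c = (-(fun x => B x + c)) x := fun x => by
    rw [ContinuousLinearMap.neg_apply, Pi.neg_apply]; abel
  simp_rw [e]
  exact hK R hR

lemma axial_fld {W : Submodule ℝ (EuclideanSpace ℝ (Fin n))} {c : EuclideanSpace ℝ (Fin n)}
    (h : AlmostAxial u W c) (B : EuclideanSpace ℝ (Fin n) →L[ℝ] EuclideanSpace ℝ (Fin n))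
    (c' : EuclideanSpace ℝ (Fin n)) (hB : ∀ x, ⟪x, B x⟫_ℝ = 0) (hc : B c + c' = 0)
    (ho : ∀ x, ∀ w ∈ W, ⟪w, B x + c'⟫_ℝ = 0) : AMono u B c' ∨ AMono u (-B) (-c') :=
  (h (fun x => B x + c') ⟨B, c', hB, fun _ => rfl⟩ hc ho).imp id amono_neg

end Vale.Agent.P134.R2.H908
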