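import Vale.Agent.P134.B331.StR
import Vale.Agent.P134.H765.SMP

/-! `P134.AlmostSymmetric`: the derivative of a solution along a Killing field solves the
linearised equation. -/

set_option linter.all false

open MeasureTheory Filter Topology

namespace Vale.Agent.P134.R2.H908

open Vale.Agent.P134 Vale.Agent.P134.H765 Vale.Agent.P134.B331

variable {n : ℕ} {u : (Fin n → ℝ) → ℝ}

/-- the derivative along the field `A x + c`. -/
noncomputable def kd (A : (Fin n → ℝ) →L[ℝ] (Fin n → ℝ)) (c : Fin n → ℝ) (u : (Fin n → ℝ) → ℝ)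
    (x : Fin n → ℝ) : ℝ := dd (A x + c) u x

variable (A : (Fin n → ℝ) →L[ℝ] (Fin n → ℝ)) (c : Fin n → ℝ)

lemma fld_contDiff {k : WithTop ℕ∞} (i : Fin n) : ContDiff ℝ k (fun y => (A y + c) i) := by
  have h1 : ContDiff ℝ k (fun y => A y + c) := A.contDiff.add contDiff_const
  exact contDiff_pi.mp h1 i

lemma fld_pd (i k : Fin n) (x : Fin n → ℝ) :
    pd k (fun y : Fin n → ℝ => (A y + c) i) x = A (Pi.single k 1) i := by
  have h1 : HasFDerivAt (fun y : Fin n → ℝ => A y + c) A x := A.hasFDerivAt.add_const c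
  have hK : HasFDerivAt (fun y : Fin n → ℝ => (A y + c) i)
      ((ContinuousLinearMap.proj (R := ℝ) (φ := fun _ : Fin n => ℝ) i).comp A) x :=
    (ContinuousLinearMap.proj (R := ℝ) (φ := fun _ : Fin n => ℝ) i).hasFDerivAt.comp x h1
  unfold pd
  rw [hK.fderiv]
  rfl

lemma kd_contDiff (hu : Sol u) : ContDiff ℝ 2 (kd A c u) := by
  have c3 : ContDiff ℝ 3 u := by exact_mod_cast SM.Sol.contDiff_nat hu 3
  have cj : ∀ j, ContDiff ℝ 2 (pd j u) := fun j => contDiff_pd (k := 2) (by exact_mod_cast c3)
  show ContDiff ℝ 2 (fun x => ∑ i, (A x + c) i * pd i u x)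
  exact ContDiff.sum fun i _ => (fld_contDiff A c i).mul (cj i)

/-- **The linearised equation for the derivative along a Killing field.** -/
theorem lap_kd (hu : Sol u) (hA : ∀ z w, ∑ i, z i * A w i = - ∑ i, A z i * w i)
    (x : Fin n → ℝ) : SM.lap (kd A c u) x = (3 * u x ^ 2 - 1) * kd A c u x := by
  have c3 : ContDiff ℝ 3 u := by exact_mod_cast SM.Sol.contDiff_nat hu 3
  have cj : ∀ j, ContDiff ℝ 2 (pd j u) := fun j => contDiff_pd (k := 2) (by exact_mod_cast c3)
  have cij : ∀ i j, ContDiff ℝ 1 (pd i (pd j u)) := fun i j => contDiff_pd_one (cj j)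
  have dj : ∀ j, Differentiable ℝ (pd j u) := fun j => (cj j).differentiable (by norm_num)
  have dij : ∀ i j, Differentiable ℝ (pd i (pd j u)) := fun i j =>
    (cij i j).differentiable (by norm_num)
  have dL : ∀ i, Differentiable ℝ (fun y : Fin n → ℝ => (A y + c) i) := fun i =>
    (fld_contDiff A c i (k := 1)).differentiable (by norm_num)
  have e1 : ∀ j, pd j (kd A c u) = fun x => ∑ i, ((A x + c) i * pd j (pd i u) x
      + A (Pi.single j 1) i * pd i u x) := by
    intro j; funext y
    have : kd A c u = fun x => ∑ i, (A x + c) i * pd i u x := rfl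
    rw [this, pd_sum Finset.univ (F := fun i x => (A x + c) i * pd i u x)
      fun i _ => (dL i y).mul (dj i y)]
    refine Finset.sum_congr rfl fun i _ => ?_
    rw [pd_mul (f := fun x => (A x + c) i) (dL i y) (dj i y), fld_pd]
    ring
  have e2 : ∀ j, pd j (pd j (kd A c u)) x = ∑ i, ((A x + c) i * pd j (pd j (pd i u)) x
      + 2 * (A (Pi.single j 1) i * pd j (pd i u) x)) := by
    intro j
    have d1 : ∀ i, DifferentiableAt ℝ (fun x => (A x + c) i * pd j (pd i u) x) x :=
      fun i => (dL i x).mul (dij j i x)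
    have d2 : ∀ i, DifferentiableAt ℝ (fun x => A (Pi.single j 1) i * pd i u x) x :=
      fun i => (dj i x).const_mul _
    rw [e1, pd_sum Finset.univ (F := fun i x => (A x + c) i * pd j (pd i u) x
      + A (Pi.single j 1) i * pd i u x) fun i _ => (d1 i).add (d2 i)]
    refine Finset.sum_congr rfl fun i _ => ?_
    rw [pd_add (d1 i) (d2 i), pd_mul (f := fun x => (A x + c) i) (dL i x) (dij j i x), fld_pd,
      pd_mul (f := fun _ => A (Pi.single j 1) i) (by fun_prop) (dj i x), pd_const]
    ring
  have hskew : ∀ i j, A (Pi.single j 1) i = - A (Pi.single i 1) j := by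
    intro i j
    have h := hA (Pi.single i 1) (Pi.single j 1)
    simpa [Pi.single_apply] using h
  have hS : ∑ j, ∑ i, A (Pi.single j 1) i * pd j (pd i u) x = 0 := by
    have h1 : ∑ j, ∑ i, A (Pi.single j 1) i * pd j (pd i u) x
        = ∑ j, ∑ i, - (A (Pi.single j 1) i * pd j (pd i u) x) := by
      rw [Finset.sum_comm]
      refine Finset.sum_congr rfl fun i _ => Finset.sum_congr rfl fun j _ => ?_
      rw [hskew j i, pd_comm hu.c2]
      ring
    simp only [Finset.sum_neg_distrib] at h1
    linarith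
  have hL : ∀ i, ∑ j, pd j (pd j (pd i u)) x = (3 * u x ^ 2 - 1) * pd i u x := by
    intro i
    have h := lap_dd hu (Pi.single i 1) x
    have e : dd (Pi.single i 1) u = pd i u := funext fun y => dd_single i u y
    rwa [e] at h
  unfold SM.lap
  simp_rw [e2, Finset.sum_add_distrib, ← Finset.mul_sum]
  rw [hS, mul_zero, add_zero, Finset.sum_comm]
  simp_rw [← Finset.mul_sum, hL]
  unfold kd dd
  rw [Finset.mul_sum]
  exact Finset.sum_congr rfl fun i _ => by ring

end Vale.Agent.P134.R2.H908
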