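import Vale.Agent.P134.R2.H561.Sgn
import Vale.Agent.P134.R2.H908.Avw

/-! `P134.AlmostSymmetric`: the sign theorem of `R2.H561.Sgn` without the bound on `f`
(the cut-off functions have compact support) and for the growth `R² (1 + log R)`. -/

set_option linter.all false

open MeasureTheory Filter Topology

namespace Vale.Agent.P134.R2.H908

open Vale.Agent.P134 Vale.Agent.P134.SM Vale.Agent.P134.R2.H561
open Vale.Agent.P134.H491 (HypN)
open Vale.Agent.P134.H891 (avn avn_contDiff avn_hasCompactSupport avn_grad cutb_grad_le rho_univ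
  ph ph_contDiff ph_hasCompactSupport ph_nonneg ph_le_one mm)

variable {n : ℕ} {u : (Fin n → ℝ) → ℝ}

/-- upper bound of the error terms. -/
lemma err_le' {f w η : (Fin n → ℝ) → ℝ} {δ ε W : ℝ} (hf : Continuous f) (hw : Continuous w)
    (hη : ContDiff ℝ 1 η) (hηc : HasCompactSupport η) (hδ : 0 < δ) (hε : 0 < ε)
    (hw0 : ∀ x, 0 ≤ w x) (hwM : ∀ x, η x ≠ 0 → w x ≤ W)
    (hwsq : ∀ x, w x ^ 2 ≤ 8 * (min (f x) 0) ^ 2 + 2 * δ) :
    ∫ x, (w x ^ 2 * ∑ j, pd j η x ^ 2 + 2 * δ * (w x * η x ^ 2) + ε * (w x ^ 2 * η x ^ 2))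
      ≤ 8 * (∫ x, (min (f x) 0) ^ 2 * ∑ j, pd j η x ^ 2)
        + δ * (2 * (∫ x, ∑ j, pd j η x ^ 2) + 2 * W * (∫ x, η x ^ 2))
        + ε * (W ^ 2 * (∫ x, η x ^ 2)) := by
  have ig : Integrable (fun x => ∑ j, pd j η x ^ 2) :=
    integrable_finsetSum _ fun j _ => ((continuous_pd hη).pow 2).integrable_of_hasCompactSupport
      (hcs_sq (hasCompactSupport_pd hηc))
  have ie : Integrable (fun x => η x ^ 2) :=
    (hη.continuous.pow 2).integrable_of_hasCompactSupport (hcs_sq hηc)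
  have i1 : Integrable (fun x => (min (f x) 0) ^ 2 * ∑ j, pd j η x ^ 2) := by
    have : (fun x => (min (f x) 0) ^ 2 * ∑ j, pd j η x ^ 2)
        = fun x => ∑ j, (min (f x) 0) ^ 2 * pd j η x ^ 2 := by
      funext x; rw [Finset.mul_sum]
    rw [this]
    exact integrable_finsetSum _ fun j _ =>
      (((hf.min continuous_const).pow 2).mul
        ((continuous_pd hη).pow 2)).integrable_of_hasCompactSupport
        (hcs_sq (hasCompactSupport_pd hηc)).mul_left
  have j1 : Integrable (fun x => w x ^ 2 * ∑ j, pd j η x ^ 2) := by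
    have : (fun x => w x ^ 2 * ∑ j, pd j η x ^ 2)
        = fun x => ∑ j, w x ^ 2 * pd j η x ^ 2 := by
      funext x; rw [Finset.mul_sum]
    rw [this]
    exact integrable_finsetSum _ fun j _ =>
      ((hw.pow 2).mul ((continuous_pd hη).pow 2)).integrable_of_hasCompactSupport
        (hcs_sq (hasCompactSupport_pd hηc)).mul_left
  have j2 : Integrable (fun x => 2 * δ * (w x * η x ^ 2)) :=
    ((hw.mul (hη.continuous.pow 2)).integrable_of_hasCompactSupport
      (hcs_sq hηc).mul_left).const_mul _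
  have j3 : Integrable (fun x => ε * (w x ^ 2 * η x ^ 2)) :=
    (((hw.pow 2).mul (hη.continuous.pow 2)).integrable_of_hasCompactSupport
      (hcs_sq hηc).mul_left).const_mul _
  have jt : Integrable (fun x => w x ^ 2 * ∑ j, pd j η x ^ 2 + 2 * δ * (w x * η x ^ 2)
      + ε * (w x ^ 2 * η x ^ 2)) := (j1.add j2).add j3
  have k1 : Integrable (fun x => 8 * ((min (f x) 0) ^ 2 * ∑ j, pd j η x ^ 2)) := i1.const_mul 8
  have k2 : Integrable (fun x => 2 * δ * ∑ j, pd j η x ^ 2) := ig.const_mul _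
  have k3 : Integrable (fun x => (2 * δ * W + ε * W ^ 2) * η x ^ 2) :=
    ie.const_mul _
  have k12 : Integrable (fun x => 8 * ((min (f x) 0) ^ 2 * ∑ j, pd j η x ^ 2)
      + 2 * δ * ∑ j, pd j η x ^ 2) := k1.add k2
  have kt : Integrable (fun x => 8 * ((min (f x) 0) ^ 2 * ∑ j, pd j η x ^ 2)
      + 2 * δ * ∑ j, pd j η x ^ 2
      + (2 * δ * W + ε * W ^ 2) * η x ^ 2) := k12.add k3
  have hpt : ∀ x, w x ^ 2 * ∑ j, pd j η x ^ 2 + 2 * δ * (w x * η x ^ 2)
      + ε * (w x ^ 2 * η x ^ 2) ≤ 8 * ((min (f x) 0) ^ 2 * ∑ j, pd j η x ^ 2)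
      + 2 * δ * ∑ j, pd j η x ^ 2
      + (2 * δ * W + ε * W ^ 2) * η x ^ 2 := by
    intro x
    have a1 : 0 ≤ ∑ j, pd j η x ^ 2 := Finset.sum_nonneg fun _ _ => sq_nonneg _
    have a2 := mul_le_mul_of_nonneg_right (hwsq x) a1
    have a3 : 0 ≤ η x ^ 2 := sq_nonneg _
    have b4 : w x * η x ^ 2 ≤ W * η x ^ 2 := by
      by_cases h0 : η x = 0
      · rw [h0]; simp
      · exact mul_le_mul_of_nonneg_right (hwM x h0) a3
    have b6 : w x ^ 2 * η x ^ 2 ≤ W ^ 2 * η x ^ 2 := by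
      by_cases h0 : η x = 0
      · rw [h0]; simp
      · exact mul_le_mul_of_nonneg_right (pow_le_pow_left₀ (hw0 x) (hwM x h0) 2) a3
    have a4 := mul_le_mul_of_nonneg_left b4 (by positivity : 0 ≤ 2 * δ)
    have a6 := mul_le_mul_of_nonneg_left b6 hε.le
    linarith
  calc _ ≤ ∫ x, (8 * ((min (f x) 0) ^ 2 * ∑ j, pd j η x ^ 2) + 2 * δ * ∑ j, pd j η x ^ 2
        + (2 * δ * W + ε * W ^ 2) * η x ^ 2) := integral_mono jt kt hpt
    _ = _ := by
      rw [integral_add k12 k3, integral_add k1 k2, integral_const_mul, integral_const_mul,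
        integral_const_mul]
      ring

/-- **Pointwise Harnack bound on the negativity set.** -/
theorem grad_le_of_growth' {f V : (Fin n → ℝ) → ℝ} {C B : ℝ} (hf : ContDiff ℝ 2 f)
    (hL : ∀ x, SM.lap f x = V x * f x) (hV : ∀ x, |V x| ≤ 2)
    (hC : 0 ≤ C) (hH : HypN n C V) (hB : 0 ≤ B)
    (hg : ∀ᶠ R in atTop, ∫ x, (min (f x) 0) ^ 2 * ph R x ≤ B * R ^ 2 * (1 + Real.log R)) (x0 : Fin n → ℝ)
    (hx0 : f x0 < 0) : ∑ j, pd j f x0 ^ 2 ≤ C ^ 2 * f x0 ^ 2 := by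
  by_contra hcon
  push Not at hcon
  have cj : ∀ j, Continuous (pd j f) := fun j => continuous_pd (hf.of_le (by norm_num))
  obtain ⟨K, hK0, R0, hK⟩ := avw_growth (g := fun x => (min (f x) 0) ^ 2)
    ((hf.continuous.min continuous_const).pow 2) (fun x => sq_nonneg _) hB hg
  -- constants
  obtain ⟨θ, hθ0, hθ⟩ : ∃ θ : ℝ, 0 < θ ∧ (C + θ) ^ 2 * (f x0 ^ 2 + θ ^ 2) < ∑ j, pd j f x0 ^ 2 := by
    have h1 : Tendsto (fun θ : ℝ => (C + θ) ^ 2 * (f x0 ^ 2 + θ ^ 2)) (𝓝[>] 0)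
        (𝓝 ((C + 0) ^ 2 * (f x0 ^ 2 + 0 ^ 2))) := by
      apply Tendsto.mono_left _ nhdsWithin_le_nhds
      have : Continuous (fun θ : ℝ => (C + θ) ^ 2 * (f x0 ^ 2 + θ ^ 2)) := by fun_prop
      exact this.tendsto 0
    have h2 : (C + 0) ^ 2 * (f x0 ^ 2 + 0 ^ 2) < ∑ j, pd j f x0 ^ 2 := by
      simpa using hcon
    obtain ⟨θ, h3, h4⟩ := ((h1.eventually (gt_mem_nhds h2)).and self_mem_nhdsWithin).exists
    exact ⟨θ, h4, h3⟩
  obtain ⟨σ, hσ⟩ : ∃ σ : ℝ, σ = - f x0 / 2 := ⟨_, rfl⟩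
  have hσ0 : 0 < σ := by rw [hσ]; linarith
  obtain ⟨r, hr0, hr⟩ : ∃ r : ℝ, 0 < r ∧ ∀ x ∈ Metric.ball x0 r, f x ≤ -σ ∧
      (C + θ) ^ 2 * (f x ^ 2 + θ ^ 2) ≤ ∑ j, pd j f x ^ 2 := by
    have h1 : ∀ᶠ x in 𝓝 x0, f x < -σ :=
      (hf.continuous.tendsto x0).eventually (gt_mem_nhds (by rw [hσ]; linarith))
    have h2 : ∀ᶠ x in 𝓝 x0, (C + θ) ^ 2 * (f x ^ 2 + θ ^ 2) < ∑ j, pd j f x ^ 2 := by
      have c1 : Continuous fun x => (C + θ) ^ 2 * (f x ^ 2 + θ ^ 2) :=
        continuous_const.mul ((hf.continuous.pow 2).add continuous_const)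
      have c2 : Continuous fun x => ∑ j, pd j f x ^ 2 :=
        continuous_finsetSum _ fun j _ => (cj j).pow 2
      exact (c1.tendsto x0).eventually_lt (c2.tendsto x0) hθ
    obtain ⟨r, hr0, hr⟩ := Metric.eventually_nhds_iff_ball.mp (h1.and h2)
    exact ⟨r, hr0, fun x hx => ⟨(hr x hx).1.le, (hr x hx).2.le⟩⟩
  -- the base radius
  obtain ⟨ρ, hρ1, hρR, hρball⟩ : ∃ ρ : ℝ, 1 ≤ ρ ∧ R0 ≤ ρ ∧
      ∀ x ∈ Metric.ball x0 r, esq x < ρ ^ 2 := by
    obtain ⟨A, hA⟩ := (ProperSpace.isCompact_closedBall x0 r).exists_bound_of_continuousOn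
      (f := fun x => esq x) (by unfold esq; fun_prop)
    refine ⟨max (max 1 R0) (|A| + 1), (le_max_left _ _).trans (le_max_left _ _),
      (le_max_right _ _).trans (le_max_left _ _), fun x hx => ?_⟩
    have h1 := hA x (Metric.ball_subset_closedBall hx)
    rw [Real.norm_eq_abs] at h1
    have h2 := le_abs_self (esq x)
    have h3 := le_abs_self A
    have h4 : |A| + 1 ≤ max (max 1 R0) (|A| + 1) := le_max_right _ _
    have h5 := abs_nonneg A
    nlinarith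
  have hρ0 : 0 < ρ := by linarith
  have hvol : 0 < (volume (Metric.ball x0 r)).toReal :=
    ENNReal.toReal_pos (Metric.measure_ball_pos volume x0 hr0).ne' measure_ball_lt_top.ne
  -- the main estimate
  have hmain : ∀ N : ℕ, 0 < N →
      4 * θ ^ 2 * σ ^ 2 * (volume (Metric.ball x0 r)).toReal
        ≤ 8 * (K * (3 + Real.log ρ) / hsum N) + 2 / N := by
    intro N hN
    have hN0 : (0:ℝ) < N := by exact_mod_cast hN
    obtain ⟨η, hη⟩ : ∃ η : (Fin n → ℝ) → ℝ, η = avw ρ N := ⟨_, rfl⟩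
    have ηc : ContDiff ℝ 1 η := by rw [hη]; exact avw_contDiff
    have ηs : HasCompactSupport η := by rw [hη]; exact avw_hasCompactSupport hρ0
    have ηb : ∀ x, x ∉ box n (2 * (2 ^ N * ρ)) → η x = 0 := by rw [hη]; exact avw_bound hρ0 N
    have η1 : ∀ x ∈ Metric.ball x0 r, η x = 1 := fun x hx => by
      rw [hη]; exact avw_one hρ0 hN (hρball x hx).le
    have hK2 : ∫ x, (min (f x) 0) ^ 2 * ∑ j, pd j η x ^ 2
        ≤ K * (3 + Real.log ρ) / hsum N := by
      rw [hη]; exact hK ρ hρ1 hρR N hN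
    clear hη
    obtain ⟨D, hD⟩ : ∃ D : ℝ, D = ∫ x : Fin n → ℝ, ∑ j, pd j η x ^ 2 := ⟨_, rfl⟩
    obtain ⟨E, hE⟩ : ∃ E : ℝ, E = ∫ x : Fin n → ℝ, η x ^ 2 := ⟨_, rfl⟩
    have hD0 : 0 ≤ D := by
      rw [hD]; exact integral_nonneg fun x => Finset.sum_nonneg fun _ _ => sq_nonneg _
    have hE0 : 0 ≤ E := by rw [hE]; exact integral_nonneg fun x => sq_nonneg _
    obtain ⟨M, hM0, hM⟩ : ∃ M : ℝ, 0 ≤ M ∧ ∀ x ∈ box n (2 * (2 ^ N * ρ)), |f x| ≤ M := by
      obtain ⟨M, hM⟩ := (isCompact_box (n := n) (2 * (2 ^ N * ρ))).exists_bound_of_continuousOn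
        hf.continuous.continuousOn
      exact ⟨|M|, abs_nonneg _, fun x hx => (hM x hx).trans (le_abs_self M)⟩
    obtain ⟨δ, hδ0, hδ1, hδθ, hδ⟩ : ∃ δ : ℝ, 0 < δ ∧ δ ≤ 1 ∧ δ ≤ θ ∧
        δ * (2 * D + 2 * (2 * M + 1) * E) ≤ 1 / N := by
      have hP : 0 ≤ 2 * D + 2 * (2 * M + 1) * E := by positivity
      refine ⟨min (min 1 θ) (1 / (N * (2 * D + 2 * (2 * M + 1) * E + 1))), by positivity,
        (min_le_left _ _).trans (min_le_left _ _), (min_le_left _ _).trans (min_le_right _ _), ?_⟩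
      have h1 : min (min 1 θ) (1 / (N * (2 * D + 2 * (2 * M + 1) * E + 1)))
          ≤ 1 / (N * (2 * D + 2 * (2 * M + 1) * E + 1)) := min_le_right _ _
      refine (mul_le_mul_of_nonneg_right h1 hP).trans ?_
      rw [div_mul_eq_mul_div, one_mul, div_le_div_iff₀ (by positivity) hN0]
      nlinarith
    obtain ⟨ε, hε0, hε⟩ : ∃ ε : ℝ, 0 < ε ∧ ε * ((2 * M + 1) ^ 2 * E) ≤ 1 / N := by
      refine ⟨1 / (N * ((2 * M + 1) ^ 2 * E + 1)), by positivity, ?_⟩
      rw [div_mul_eq_mul_div, one_mul, div_le_div_iff₀ (by positivity) hN0]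
      nlinarith
    obtain ⟨X, hX1, hX2, hX3⟩ := hH (2 * (2 ^ N * ρ)) ε (by positivity) hε0
    have hw0 : ∀ x, 0 ≤ gsn δ (f x) := fun x => (gsn_pos hδ0 _).le
    have hwM : ∀ x, η x ≠ 0 → gsn δ (f x) ≤ 2 * M + 1 := by
      intro x hxη
      have hxb : x ∈ box n (2 * (2 ^ N * ρ)) := by
        by_contra hxn
        exact hxη (ηb x hxn)
      refine (gsn_le hδ0 _).trans ?_
      have h1 : |min (f x) 0| ≤ M := by
        refine le_trans ?_ (hM x hxb)
        rcases le_total (f x) 0 with h | h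
        · rw [min_eq_left h]
        · rw [min_eq_right h, abs_zero]; exact abs_nonneg _
      linarith
    have hwsq : ∀ x, gsn δ (f x) ^ 2 ≤ 8 * (min (f x) 0) ^ 2 + 2 * δ := by
      intro x
      have h1 : gsn δ (f x) ≤ 2 * |min (f x) 0| + δ := gsn_le hδ0 _
      have h2 := hw0 x
      have h3 : gsn δ (f x) ^ 2 ≤ (2 * |min (f x) 0| + δ) ^ 2 := pow_le_pow_left₀ h2 h1 2
      have h4 := sq_abs (min (f x) 0)
      nlinarith [sq_nonneg (2 * |min (f x) 0| - δ)]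
    have hineq := riccati_ineq (κ := 2 * δ) (w := fun x => gsn δ (f x))
      ((gsn_contDiff hδ0).comp hf) ηc ηs hX1 ηb hX3 (fun x => lap_gsn hδ0 hf hL hV x) hw0
    have hup := err_le' (w := fun x => gsn δ (f x)) hf.continuous
      (((gsn_contDiff hδ0).comp hf : ContDiff ℝ 2 _).continuous) ηc ηs hδ0 hε0 hw0 hwM hwsq
    rw [← hD, ← hE] at hup
    have hlow := low_ge hf ηc ηs hX1 (fun x hx => hX2 x (by
      by_contra hxn
      have h1 := ηb x hxn
      rw [η1 x hx] at h1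
      exact one_ne_zero h1)) hC hθ0 hσ0 hδ0 hδθ η1 hr
    refine hlow.trans (hineq.trans (hup.trans ?_))
    calc _ ≤ 8 * (K * (3 + Real.log ρ) / hsum N) + 1 / N + 1 / N := by linarith
      _ = 8 * (K * (3 + Real.log ρ) / hsum N) + 2 / N := by ring
  have hlim : Tendsto (fun N : ℕ => 8 * (K * (3 + Real.log ρ) / hsum N) + 2 / (N:ℝ)) atTop (𝓝 0) := by
    have t1 : Tendsto (fun N : ℕ => K * (3 + Real.log ρ) / hsum N) atTop (𝓝 0) :=
      hsum_tendsto.const_div_atTop _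
    have t2 : Tendsto (fun N : ℕ => 2 / (N:ℝ)) atTop (𝓝 0) :=
      tendsto_const_div_atTop_nhds_zero_nat _
    simpa using (t1.const_mul 8).add t2
  have h1 : 4 * θ ^ 2 * σ ^ 2 * (volume (Metric.ball x0 r)).toReal ≤ 0 := ge_of_tendsto hlim (by
    filter_upwards [eventually_gt_atTop 0] with N hN using hmain N hN)
  have h2 : 0 < 4 * θ ^ 2 * σ ^ 2 * (volume (Metric.ball x0 r)).toReal := by positivity
  linarith

/-- **Sign from quadratic growth of the negative part.** -/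
theorem sign_of_growth' {f V : (Fin n → ℝ) → ℝ} {C B : ℝ} (hf : ContDiff ℝ 2 f)
    (hL : ∀ x, SM.lap f x = V x * f x) (hV : ∀ x, |V x| ≤ 2)
    (hC : 0 ≤ C) (hH : HypN n C V) (hB : 0 ≤ B)
    (hg : ∀ᶠ R in atTop, ∫ x, (min (f x) 0) ^ 2 * ph R x ≤ B * R ^ 2 * (1 + Real.log R)) :
    (∀ x, 0 ≤ f x) ∨ (∀ x, f x < 0) := by
  by_cases h : ∃ y, f y < 0
  swap
  · push Not at h
    exact Or.inl h
  refine Or.inr fun z => ?_
  obtain ⟨y, hy⟩ := h
  have df : Differentiable ℝ f := hf.differentiable (by norm_num)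
  obtain ⟨v, hv⟩ : ∃ v : Fin n → ℝ, v = z - y := ⟨_, rfl⟩
  have hd : ∀ t, HasDerivAt (fun s : ℝ => f (y + s • v)) (dd v f (y + t • v)) t :=
    fun t => hasDerivAt_dd df y v t
  obtain ⟨L, hLd⟩ : ∃ L : ℝ, L = C * eno v + 1 := ⟨_, rfl⟩
  have hB' : ∀ t : ℝ, HasDerivAt (fun t : ℝ => f y * Real.exp (-L * t))
      (f y * (Real.exp (-L * t) * (-L))) t := by
    intro t
    have h1 : HasDerivAt (fun t : ℝ => -L * t) (-L) t := by
      simpa using (hasDerivAt_id t).const_mul (-L)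
    exact (h1.exp).const_mul _
  have h1 := image_le_of_deriv_right_lt_deriv_boundary (f := fun s : ℝ => f (y + s • v))
    (f' := fun t => dd v f (y + t • v)) (a := 0) (b := 1)
    (fun t _ => (hd t).continuousAt.continuousWithinAt)
    (fun t _ => (hd t).hasDerivWithinAt) (B := fun t => f y * Real.exp (-L * t))
    (B' := fun t => f y * (Real.exp (-L * t) * (-L))) (by simp) hB' (fun t _ ht => by
      have hneg : f (y + t • v) < 0 := by
        rw [ht]; exact mul_neg_of_neg_of_pos hy (Real.exp_pos _)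
      have h2 := grad_le_of_growth' hf hL hV hC hH hB hg _ hneg
      have h3 : dd v f (y + t • v) ≤ eno v * (C * - f (y + t • v)) := by
        have h4 : dd v f (y + t • v) ^ 2 ≤ (∑ i, v i ^ 2) * ∑ i, pd i f (y + t • v) ^ 2 := by
          unfold dd
          exact Finset.sum_mul_sq_le_sq_mul_sq _ _ _
        have h5 : dd v f (y + t • v) ^ 2 ≤ (eno v * (C * - f (y + t • v))) ^ 2 := by
          refine h4.trans ?_
          have e : (eno v * (C * - f (y + t • v))) ^ 2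
              = (∑ i, v i ^ 2) * (C ^ 2 * f (y + t • v) ^ 2) := by
            have : eno v ^ 2 = ∑ i, v i ^ 2 := eno_sq v
            rw [← this]; ring
          rw [e]
          exact mul_le_mul_of_nonneg_left h2 (Finset.sum_nonneg fun _ _ => sq_nonneg _)
        exact abs_le_of_sq_le_sq' h5 (mul_nonneg (Real.sqrt_nonneg _)
          (mul_nonneg hC (by linarith))) |>.2
      have h6 : f y * (Real.exp (-L * t) * (-L)) = L * - f (y + t • v) := by
        rw [ht]; ring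
      rw [h6, hLd]
      nlinarith)
  have h2 := h1 (Set.right_mem_Icc.mpr zero_le_one)
  simp only [one_smul] at h2
  have e : y + v = z := by rw [hv]; abel
  rw [e] at h2
  exact lt_of_le_of_lt h2 (mul_neg_of_neg_of_pos hy (Real.exp_pos _))

end Vale.Agent.P134.R2.H908
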