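import Vale.Agent.P134.R2.H908.Stm
import Vale.Agent.P134.R2.H908.Sgn2
import Vale.Agent.P134.R2.H908.Jac
import Vale.Agent.P134.R2.H561.Euc2
import Vale.Agent.P134.B331.RowS

/-! `P134.AlmostSymmetric`: one-sided quadratic growth of the derivative along a Killing field. -/

set_option linter.all false

open MeasureTheory Filter Topology
open scoped InnerProductSpace Laplacian

namespace Vale.Agent.P134.R2.H908

open Vale.Agent.P134 Vale.Agent.P134.SM Vale.Agent.P134.R2.H561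
open Vale.Agent.P134.H491 (HypN)
open Vale.Agent.P134.H765 (abs_le_one_of_bdd StableE stabV_of_stableE hypN_of_stable coordMap_std
  VV_abs)
open Vale.Agent.P134.H891 (ph ph_contDiff ph_hasCompactSupport ph_nonneg ph_le_one mm mm_eq_zero)
open Vale.Agent.P134.B331.M (ofE ofE_apply inner_sum' skew_polar' norm_sq_eq_esq)

variable {n : ℕ}

/-- `AlmostMonotone` for the field `B x + c`. -/
def AMono (u : EuclideanSpace ℝ (Fin n) → ℝ)
    (B : EuclideanSpace ℝ (Fin n) →L[ℝ] EuclideanSpace ℝ (Fin n))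
    (c : EuclideanSpace ℝ (Fin n)) : Prop :=
  ∃ K : ℝ, ∀ R : ℝ, 1 ≤ R →
    ∫ x in Metric.ball 0 R, (min (fderiv ℝ u x (B x + c)) 0) ^ 2 ≤ K * R ^ 2 * (1 + Real.log R)

/-- Coordinates: one-sided growth and a zero give invariance. -/
theorem kd_zero {u : (Fin n → ℝ) → ℝ} (hu : SH u) {A : (Fin n → ℝ) →L[ℝ] (Fin n → ℝ)}
    {c : Fin n → ℝ} (hA : ∀ z w, ∑ i, z i * A w i = - ∑ i, A z i * w i) {K : ℝ} (hK : 0 ≤ K)
    (hg : ∀ᶠ R in atTop, ∫ x, (min (kd A c u x) 0) ^ 2 * ph R x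
      ≤ K * R ^ 2 * (1 + Real.log R)) {x0 : Fin n → ℝ}
    (hx0 : kd A c u x0 = 0) (x : Fin n → ℝ) : kd A c u x = 0 := by
  obtain ⟨hs, C, hC⟩ := hu
  have hC' : HypN n |C| (fun x => 3 * u x ^ 2 - 1) := by
    intro R ε hR hε
    obtain ⟨X, h1, h2, h3⟩ := hC R ε hR hε
    exact ⟨X, h1, fun x hx => by rw [sq_abs]; exact h2 x hx, h3⟩
  rcases sign_of_growth' (kd_contDiff A c hs) (fun x => lap_kd A c hs hA x)
    (fun x => VV_abs hs x) (abs_nonneg C) hC' hK hg with h | h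
  · refine H765.smp (kd_contDiff A c hs) h (C := 2) (fun y => ?_) hx0 x
    have h1 : ∑ i, pd i (pd i (kd A c u)) y = (3 * u y ^ 2 - 1) * kd A c u y := lap_kd A c hs hA y
    rw [h1]
    exact mul_le_mul_of_nonneg_right (abs_le.mp (VV_abs hs y)).2 (h y)
  · exact absurd hx0 (h x0).ne

lemma kd_std {u : EuclideanSpace ℝ (Fin n) → ℝ} (du : Differentiable ℝ u)
    (B : EuclideanSpace ℝ (Fin n) →L[ℝ] EuclideanSpace ℝ (Fin n)) (c : EuclideanSpace ℝ (Fin n))
    (y : Fin n → ℝ) :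
    kd (ofE B) (fun i => c i) (fun y => u (0 + coordMap (EuclideanSpace.basisFun (Fin n) ℝ) y)) y
      = fderiv ℝ u (WithLp.toLp 2 y) (B (WithLp.toLp 2 y) + c) := by
  have h1 : ofE B y + (fun i => c i) = fun i =>
      ⟪EuclideanSpace.basisFun (Fin n) ℝ i,
        B (coordMap (EuclideanSpace.basisFun (Fin n) ℝ) y) + c⟫_ℝ := by
    funext i
    rw [coordMap_std, EuclideanSpace.basisFun_apply, EuclideanSpace.inner_single_left]
    simp [ofE_apply]
  unfold kd
  rw [h1, dd_coord du, zero_add, coordMap_std]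

lemma ofE_skew {B : EuclideanSpace ℝ (Fin n) →L[ℝ] EuclideanSpace ℝ (Fin n)}
    (hB : ∀ x, ⟪x, B x⟫_ℝ = 0) (z w : Fin n → ℝ) :
    ∑ i, z i * ofE B w i = - ∑ i, ofE B z i * w i := by
  have h1 := skew_polar' hB (WithLp.toLp 2 z) (WithLp.toLp 2 w)
  rw [inner_sum', inner_sum'] at h1
  simp only [ofE_apply]
  have h2 : ∑ k, (WithLp.toLp 2 w : EuclideanSpace ℝ (Fin n)) k
      * B (WithLp.toLp 2 z) k = ∑ i, B (WithLp.toLp 2 z) i * w i :=
    Finset.sum_congr rfl fun k _ => mul_comm _ _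
  rw [h2] at h1
  exact h1

/-- transfer of the growth condition. -/
lemma growth_kd {u : EuclideanSpace ℝ (Fin n) → ℝ} (hu : ContDiff ℝ 2 u)
    {B : EuclideanSpace ℝ (Fin n) →L[ℝ] EuclideanSpace ℝ (Fin n)} {c : EuclideanSpace ℝ (Fin n)}
    {K : ℝ} (hg : ∀ R : ℝ, 1 ≤ R →
      ∫ x in Metric.ball 0 R, (min (fderiv ℝ u x (B x + c)) 0) ^ 2
        ≤ K * R ^ 2 * (1 + Real.log R)) :
    ∃ K' : ℝ, 0 ≤ K' ∧ ∀ᶠ R in atTop, ∫ y, (min (kd (ofE B) (fun i => c i)
      (fun y => u (0 + coordMap (EuclideanSpace.basisFun (Fin n) ℝ) y)) y) 0) ^ 2 * ph R y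
        ≤ K' * R ^ 2 * (1 + Real.log R) := by
  have du : Differentiable ℝ u := hu.differentiable (by norm_num)
  refine ⟨|K|, abs_nonneg _, ?_⟩
  filter_upwards [eventually_ge_atTop 1] with R hR
  have hR0 : 0 < R := by linarith
  obtain ⟨F, hF⟩ : ∃ F : EuclideanSpace ℝ (Fin n) → ℝ,
      F = fun x => (min (fderiv ℝ u x (B x + c)) 0) ^ 2 := ⟨_, rfl⟩
  have hFc : Continuous F := by
    rw [hF]
    exact (((hu.continuous_fderiv (by norm_num)).clm_apply
      (B.continuous.add continuous_const)).min continuous_const).pow 2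
  have hF0 : ∀ x, 0 ≤ F x := fun x => by rw [hF]; exact sq_nonneg _
  have e1 : ∀ y, (min (kd (ofE B) (fun i => c i)
      (fun y => u (0 + coordMap (EuclideanSpace.basisFun (Fin n) ℝ) y)) y) 0) ^ 2
        = F (WithLp.toLp 2 y) := by
    intro y
    rw [kd_std du, hF]
  simp_rw [e1]
  obtain ⟨G, hG⟩ : ∃ G : EuclideanSpace ℝ (Fin n) → ℝ,
      G = (Metric.ball 0 R).indicator F := ⟨_, rfl⟩
  have hmp := PiLp.volume_preserving_toLp (Fin n)
  have h2 : ∫ x, G x = ∫ y, G (WithLp.toLp 2 y) :=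
    (hmp.integral_comp (MeasurableEquiv.toLp 2 (Fin n → ℝ)).measurableEmbedding G).symm
  have hGi : Integrable G := by
    rw [hG, integrable_indicator_iff measurableSet_ball]
    exact (hFc.continuousOn.integrableOn_compact
      (isCompact_closedBall (0 : EuclideanSpace ℝ (Fin n)) R)).mono_set
      Metric.ball_subset_closedBall
  have hGi' : Integrable fun y : Fin n → ℝ => G (WithLp.toLp 2 y) :=
    (hmp.integrable_comp_emb (MeasurableEquiv.toLp 2 (Fin n → ℝ)).measurableEmbedding).mpr hGi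
  have hpt : ∀ y : Fin n → ℝ, F (WithLp.toLp 2 y) * ph R y ≤ G (WithLp.toLp 2 y) := by
    intro y
    by_cases hy : (WithLp.toLp 2 y : EuclideanSpace ℝ (Fin n)) ∈ Metric.ball 0 R
    · rw [hG, Set.indicator_of_mem hy]
      have h3 := mul_le_mul_of_nonneg_left (ph_le_one R y) (hF0 (WithLp.toLp 2 y))
      linarith
    · have h3 : R ^ 2 ≤ esq y := by
        rw [Metric.mem_ball, dist_zero_right, not_lt] at hy
        have h4 : ‖(WithLp.toLp 2 y : EuclideanSpace ℝ (Fin n))‖ ^ 2 = esq y :=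
          norm_sq_eq_esq _
        rw [← h4]
        exact pow_le_pow_left₀ hR0.le hy 2
      have h4 : ph R y = 0 := by
        unfold Vale.Agent.P134.H891.ph
        rw [mm_eq_zero hR0 h3]; ring
      rw [h4, mul_zero, hG, Set.indicator_of_notMem hy]
  have hi : Integrable fun y : Fin n → ℝ => F (WithLp.toLp 2 y) * ph R y := by
    refine Continuous.integrable_of_hasCompactSupport ?_ (ph_hasCompactSupport hR0).mul_left
    exact (hFc.comp (PiLp.continuous_toLp 2 _)).mul (ph_contDiff R).continuous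
  calc ∫ y, F (WithLp.toLp 2 y) * ph R y ≤ ∫ y, G (WithLp.toLp 2 y) :=
        integral_mono hi hGi' hpt
    _ = ∫ x in Metric.ball 0 R, F x := by
        rw [← h2, hG, integral_indicator measurableSet_ball]
    _ ≤ K * R ^ 2 * (1 + Real.log R) := by rw [hF]; exact hg R hR
    _ ≤ |K| * R ^ 2 * (1 + Real.log R) := by
        have h5 := Real.log_nonneg hR
        have h6 : 0 ≤ R ^ 2 * (1 + Real.log R) := by positivity
        have h7 := mul_le_mul_of_nonneg_right (le_abs_self K) h6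
        linarith

/-- the form with the class `SH` in standard coordinates. -/
theorem rigid_SH {u : EuclideanSpace ℝ (Fin n) → ℝ} (hu : ContDiff ℝ 2 u)
    (hS : SH (fun y => u (0 + coordMap (EuclideanSpace.basisFun (Fin n) ℝ) y)))
    {B : EuclideanSpace ℝ (Fin n) →L[ℝ] EuclideanSpace ℝ (Fin n)} (hB : ∀ x, ⟪x, B x⟫_ℝ = 0)
    {c : EuclideanSpace ℝ (Fin n)} (hg : AMono u B c)
    {x0 : EuclideanSpace ℝ (Fin n)} (hx0 : fderiv ℝ u x0 (B x0 + c) = 0)
    (x : EuclideanSpace ℝ (Fin n)) : fderiv ℝ u x (B x + c) = 0 := by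
  have du : Differentiable ℝ u := hu.differentiable (by norm_num)
  obtain ⟨K, hK⟩ := hg
  obtain ⟨K', hK', hg'⟩ := growth_kd hu hK
  have h0 := kd_std du B c (WithLp.ofLp x0)
  rw [WithLp.toLp_ofLp, hx0] at h0
  have h := kd_zero hS (ofE_skew hB) hK' hg' h0 (WithLp.ofLp x)
  rwa [kd_std du, WithLp.toLp_ofLp] at h

/-- **Stable solutions.** -/
theorem rigid_stable {u : EuclideanSpace ℝ (Fin n) → ℝ} (hu : ContDiff ℝ 2 u)
    (heq : ∀ x, Δ u x = u x ^ 3 - u x) (hb : ∃ M : ℝ, ∀ x, |u x| ≤ M) (hs : StableE u)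
    {B : EuclideanSpace ℝ (Fin n) →L[ℝ] EuclideanSpace ℝ (Fin n)} (hB : ∀ x, ⟪x, B x⟫_ℝ = 0)
    {c : EuclideanSpace ℝ (Fin n)} (hg : AMono u B c)
    {x0 : EuclideanSpace ℝ (Fin n)} (hx0 : fderiv ℝ u x0 (B x0 + c) = 0) :
    ∀ x, fderiv ℝ u x (B x + c) = 0 := by
  have hb1 := abs_le_one_of_bdd hu heq hb
  have hsol := sol_of_euclidean hu heq hb1 (EuclideanSpace.basisFun (Fin n) ℝ) 0
  have hst := stabV_of_stableE hs
  exact rigid_SH hu ⟨hsol, _, hypN_of_stable hsol hst⟩ hB hg hx0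

/-- **Monotone solutions.** -/
theorem rigid_mono {u : EuclideanSpace ℝ (Fin n) → ℝ} (hu : ContDiff ℝ 2 u)
    (heq : ∀ x, Δ u x = u x ^ 3 - u x) (hb : ∃ M : ℝ, ∀ x, |u x| ≤ M)
    {a : EuclideanSpace ℝ (Fin n)} (ha : ∀ x, 0 < fderiv ℝ u x a)
    {B : EuclideanSpace ℝ (Fin n) →L[ℝ] EuclideanSpace ℝ (Fin n)} (hB : ∀ x, ⟪x, B x⟫_ℝ = 0)
    {c : EuclideanSpace ℝ (Fin n)} (hg : AMono u B c)
    {x0 : EuclideanSpace ℝ (Fin n)} (hx0 : fderiv ℝ u x0 (B x0 + c) ≤ 0) :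
    ∃ s : ℝ, 0 ≤ s ∧ ∀ x, fderiv ℝ u x (B x + (c + s • a)) = 0 := by
  have hb1 := abs_le_one_of_bdd hu heq hb
  have du : Differentiable ℝ u := hu.differentiable (by norm_num)
  have hsol := sol_of_euclidean hu heq hb1 (EuclideanSpace.basisFun (Fin n) ℝ) 0
  have hSH := sh_of_dir (e := fun i => a i) hsol fun y => by rw [dd_std du]; exact ha _
  obtain ⟨s, hs⟩ : ∃ s : ℝ, s = - fderiv ℝ u x0 (B x0 + c) / fderiv ℝ u x0 a := ⟨_, rfl⟩
  have hs0 : 0 ≤ s := by rw [hs]; exact div_nonneg (by linarith) (ha x0).le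
  have hadd : ∀ x, fderiv ℝ u x (B x + (c + s • a))
      = fderiv ℝ u x (B x + c) + s * fderiv ℝ u x a := by
    intro x
    rw [← add_assoc, map_add, map_smul, smul_eq_mul]
  refine ⟨s, hs0, rigid_SH hu hSH hB (x0 := x0) ?_ ?_⟩
  · obtain ⟨K, hK⟩ := hg
    refine ⟨K, fun R hR => le_trans ?_ (hK R hR)⟩
    have hc : ∀ v : EuclideanSpace ℝ (Fin n),
        Continuous fun x => (min (fderiv ℝ u x (B x + v)) 0) ^ 2 := fun v =>
      (((hu.continuous_fderiv (by norm_num)).clm_apply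
        (B.continuous.add continuous_const)).min continuous_const).pow 2
    have hint : ∀ v : EuclideanSpace ℝ (Fin n), IntegrableOn
        (fun x => (min (fderiv ℝ u x (B x + v)) 0) ^ 2) (Metric.ball 0 R) := fun v =>
      ((hc v).continuousOn.integrableOn_compact
        (isCompact_closedBall (0 : EuclideanSpace ℝ (Fin n)) R)).mono_set
        Metric.ball_subset_closedBall
    refine setIntegral_mono (hint _) (hint _) fun x => ?_
    simp only
    rw [hadd]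
    have h1 : 0 ≤ s * fderiv ℝ u x a := mul_nonneg hs0 (ha x).le
    have h2 : min (fderiv ℝ u x (B x + c)) 0
        ≤ min (fderiv ℝ u x (B x + c) + s * fderiv ℝ u x a) 0 :=
      min_le_min (by linarith) le_rfl
    have h3 : min (fderiv ℝ u x (B x + c) + s * fderiv ℝ u x a) 0 ≤ 0 := min_le_right _ _
    nlinarith
  · rw [hadd, hs]
    have := (ha x0).ne'
    field_simp
    ring

lemma neg_fld {u : EuclideanSpace ℝ (Fin n) → ℝ}
    (B : EuclideanSpace ℝ (Fin n) →L[ℝ] EuclideanSpace ℝ (Fin n)) (c : EuclideanSpace ℝ (Fin n))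
    (x : EuclideanSpace ℝ (Fin n)) :
    fderiv ℝ u x ((-B) x + -c) = - fderiv ℝ u x (B x + c) := by
  have : (-B) x + -c = -(B x + c) := by
    rw [ContinuousLinearMap.neg_apply]; abel
  rw [this, map_neg]

/-- **Monotone solutions**, with the alternative of a two-sided bound. -/
theorem rigid_mono' {u : EuclideanSpace ℝ (Fin n) → ℝ} (hu : ContDiff ℝ 2 u)
    (heq : ∀ x, Δ u x = u x ^ 3 - u x) (hb : ∃ M : ℝ, ∀ x, |u x| ≤ M)
    {a : EuclideanSpace ℝ (Fin n)} (ha : ∀ x, 0 < fderiv ℝ u x a)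
    {B : EuclideanSpace ℝ (Fin n) →L[ℝ] EuclideanSpace ℝ (Fin n)} (hB : ∀ x, ⟪x, B x⟫_ℝ = 0)
    {c : EuclideanSpace ℝ (Fin n)} (hg : AMono u B c)
    (h : (∃ x, fderiv ℝ u x (B x + c) ≤ 0) ∨ AMono u (-B) (-c)) :
    ∃ s : ℝ, ∀ x, fderiv ℝ u x (B x + c) = s * fderiv ℝ u x a := by
  have hadd : ∀ (B' : EuclideanSpace ℝ (Fin n) →L[ℝ] EuclideanSpace ℝ (Fin n))
      (c' : EuclideanSpace ℝ (Fin n)) (s : ℝ) x, fderiv ℝ u x (B' x + (c' + s • a))
      = fderiv ℝ u x (B' x + c') + s * fderiv ℝ u x a := by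
    intro B' c' s x
    rw [← add_assoc, map_add, map_smul, smul_eq_mul]
  by_cases h1 : ∃ x, fderiv ℝ u x (B x + c) ≤ 0
  · obtain ⟨x0, hx0⟩ := h1
    obtain ⟨s, -, hs⟩ := rigid_mono hu heq hb ha hB hg hx0
    refine ⟨-s, fun x => ?_⟩
    have := hs x
    rw [hadd] at this
    linarith
  · have h2 : AMono u (-B) (-c) := h.resolve_left h1
    push Not at h1
    have hB' : ∀ x, ⟪x, (-B) x⟫_ℝ = 0 := fun x => by
      rw [ContinuousLinearMap.neg_apply, inner_neg_right, hB, neg_zero]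
    obtain ⟨s, -, hs⟩ := rigid_mono hu heq hb ha hB' h2 (x0 := 0) (by
      rw [neg_fld]; linarith [h1 0])
    refine ⟨s, fun x => ?_⟩
    have := hs x
    rw [hadd, neg_fld] at this
    linarith

end Vale.Agent.P134.R2.H908
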