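import Mathlib

/-! Definitions used in the statement of `P134.AlmostSymmetric`. -/

open scoped InnerProductSpace Laplacian

namespace Vale.Agent.P134.R2.H908

/-- `u` is a bounded solution of class `C²` of the Allen-Cahn equation `Δ u = u³ - u`. -/
def BddSol {n : ℕ} (u : EuclideanSpace ℝ (Fin n) → ℝ) : Prop :=
  ContDiff ℝ 2 u ∧ (∀ x, Δ u x = u x ^ 3 - u x) ∧ ∃ M : ℝ, ∀ x, |u x| ≤ M

/-- The derivative of `u` at `x` in the direction `X x`. -/
noncomputable def along {n : ℕ} (u : EuclideanSpace ℝ (Fin n) → ℝ)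
    (X : EuclideanSpace ℝ (Fin n) → EuclideanSpace ℝ (Fin n)) (x : EuclideanSpace ℝ (Fin n)) : ℝ :=
  fderiv ℝ u x (X x)

/-- The derivative of `u` in the direction `a` is positive everywhere. -/
def Incr {n : ℕ} (u : EuclideanSpace ℝ (Fin n) → ℝ) (a : EuclideanSpace ℝ (Fin n)) : Prop :=
  ∀ x, 0 < fderiv ℝ u x a

/-- `X` is a Killing field: `X x = B x + c` with `B` skew (the generators of the one-parameter
groups of rotations, screw motions and translations). -/
def Killing {n : ℕ} (X : EuclideanSpace ℝ (Fin n) → EuclideanSpace ℝ (Fin n)) : Prop :=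
  ∃ (B : EuclideanSpace ℝ (Fin n) →L[ℝ] EuclideanSpace ℝ (Fin n)) (c : EuclideanSpace ℝ (Fin n)),
    (∀ x, ⟪x, B x⟫_ℝ = 0) ∧ ∀ x, X x = B x + c

/-- `u` is nondecreasing along the field `X`, up to an `L²` error: the negative part of the
derivative of `u` along `X` satisfies `∫_{|x| < R} min(Du(x)(X x), 0)² ≤ K R² (1 + log R)` for
all `R ≥ 1`. -/
def AlmostMonotone {n : ℕ} (u : EuclideanSpace ℝ (Fin n) → ℝ)
    (X : EuclideanSpace ℝ (Fin n) → EuclideanSpace ℝ (Fin n)) : Prop :=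
  ∃ K : ℝ, ∀ R : ℝ, 1 ≤ R →
    ∫ x in Metric.ball 0 R, (min (along u X x) 0) ^ 2 ≤ K * R ^ 2 * (1 + Real.log R)

/-- `u` is almost symmetric about the affine subspace `c + W`: for every field `X` of infinitesimal
rotations about `c + W` (`X` a Killing field with `X c = 0` and with values orthogonal to `W`), `u`
is nondecreasing or nonincreasing along `X` up to an `L²` error as above. -/
def AlmostAxial {n : ℕ} (u : EuclideanSpace ℝ (Fin n) → ℝ)
    (W : Submodule ℝ (EuclideanSpace ℝ (Fin n))) (c : EuclideanSpace ℝ (Fin n)) : Prop :=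
  ∀ X, Killing X → X c = 0 → (∀ x, ∀ w ∈ W, ⟪w, X x⟫_ℝ = 0) →
    AlmostMonotone u X ∨ AlmostMonotone u (-X)

/-- `u x = tanh ((⟨e, x⟩ - c) / √2)` for a real `c`, and `|e| = 1`. -/
def Layer {n : ℕ} (u : EuclideanSpace ℝ (Fin n) → ℝ) (e : EuclideanSpace ℝ (Fin n)) : Prop :=
  ‖e‖ = 1 ∧ ∃ c : ℝ, ∀ x, u x = Real.tanh ((⟪e, x⟫_ℝ - c) / √2)

/-- `u` is constant `1`, constant `-1`, or one-dimensional and heteroclinic. -/
def OneDim {n : ℕ} (u : EuclideanSpace ℝ (Fin n) → ℝ) : Prop :=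
  (∀ x, u x = 1) ∨ (∀ x, u x = -1) ∨ ∃ e, Layer u e

end Vale.Agent.P134.R2.H908
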